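import Vale.Agent.P161.Final

namespace Vale.Agent.Results.P161.BelowKS

open MeasureTheory Vale.Agent.P161

/-- For every `d ≥ 3` and `β ≥ 0` with `(d - 1) tanh² β < 1`, the free Ising measure on the
`d`-regular tree is a factor of IID. -/
theorem result (d : ℕ) (hd : 3 ≤ d) (V : Type) [Countable V] (G : SimpleGraph V)
    [G.LocallyFinite] (hG : G.IsTree) (hreg : G.IsRegularOfDegree d) (β : ℝ) (hβ : 0 ≤ β)
    (hlt : ((d : ℝ) - 1) * Real.tanh β ^ 2 < 1) :
    ∃ Φ : (V → unitInterval) → V → Bool, Measurable Φ ∧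
      (∀ (g : G ≃g G) (U : V → unitInterval),
        Φ (fun v => U (g.symm v)) = fun v => Φ U (g.symm v)) ∧
      IsFreeIsing G (Real.tanh β)
        ((Measure.infinitePi fun _ : V => (volume : Measure unitInterval)).map Φ) :=
  factor hG (fun v => (hreg v).le) (by omega)
    (by rw [Real.tanh_eq_sinh_div_cosh]
        exact div_nonneg (Real.sinh_nonneg_iff.2 hβ) (Real.cosh_pos β).le) hlt

end Vale.Agent.Results.P161.BelowKS
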