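import Vale.Agent.P161E.Sly

namespace Vale.Agent.Results.P161.Threshold

open MeasureTheory Vale.Agent.P161

/-- For every `d ≥ 3` and `β ≥ 0`, the free Ising measure on the `d`-regular tree is a factor of
IID if and only if `tanh β ≤ (d - 1)^(-1/2)`. -/
theorem result (d : ℕ) (hd : 3 ≤ d) (V : Type) [Countable V] (G : SimpleGraph V)
    [G.LocallyFinite] (hG : G.IsTree) (hreg : G.IsRegularOfDegree d) (β : ℝ) (hβ : 0 ≤ β) :
    (∃ Φ : (V → unitInterval) → V → Bool, Measurable Φ ∧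
      (∀ g : G ≃g G, ∀ᵐ U ∂(Measure.infinitePi fun _ : V => (volume : Measure unitInterval)),
        Φ (fun v => U (g.symm v)) = fun v => Φ U (g.symm v)) ∧
      IsFreeIsing G (Real.tanh β)
        ((Measure.infinitePi fun _ : V => (volume : Measure unitInterval)).map Φ)) ↔
    Real.tanh β ≤ 1 / √((d : ℝ) - 1) := by
  have h0 : 0 ≤ Real.tanh β := by
    rw [Real.tanh_eq_sinh_div_cosh]
    exact div_nonneg (Real.sinh_nonneg_iff.2 hβ) (Real.cosh_pos β).le
  have h3 : (3 : ℝ) ≤ d := by exact_mod_cast hd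
  have e : Real.tanh β ≤ 1 / √((d : ℝ) - 1) ↔ ((d : ℝ) - 1) * Real.tanh β ^ 2 ≤ 1 := by
    rw [← pow_le_pow_iff_left₀ h0 (by positivity) two_ne_zero, div_pow, one_pow,
      Real.sq_sqrt (by linarith), le_div_iff₀' (by linarith)]
  rw [e]
  refine ⟨fun ⟨Φ, m, q, l⟩ => P161E.sly hG hreg hd ⟨h0, Real.tanh_lt_one β⟩ m q l, fun hle => ?_⟩
  obtain ⟨Φ, m, q, l⟩ := hle.lt_or_eq.elim (factor hG (fun v => (hreg v).le) (by omega) h0)
    fun heq => P161E.factor_of_cauchy hG ⟨h0, Real.tanh_lt_one β⟩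
      fun J η hη => P161E.ucauchy hG hreg hd h0 heq J hη
  exact ⟨Φ, m, fun g => Filter.Eventually.of_forall (q g), l⟩

end Vale.Agent.Results.P161.Threshold
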